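import Vale.Agent.Lib.P121.Final

/-!
# P121: an absolutely continuous measure without optimal Monge plan

There is a Borel probability measure on Euclidean three-space, absolutely continuous with respect
to Lebesgue measure and of finite Kantorovich value for the three-marginal Coulomb cost, which
admits no optimal Monge plan.  This answers Q1 in the negative.

The measure consists of five tiny blobs: one of mass 1/3 at the origin and four of mass 1/6 at
`e1, -e1, e2, -e2`.  An explicit Kantorovich potential (radial on the central blob) shows that every
optimal plan lives on triples `(a, β a, γ a)` or `(a, β' a, γ' a)` (up to order), where both branches
are available at every point `a` of the central blob, and the outer blobs carry only half of the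
density of the central one; so the mass at `a` has to split.
-/

namespace Vale.Agent.Results.P121.NoOptimalMongePlan

open MeasureTheory Vale.Agent.Lib.P121

theorem result :
    ∃ μ : Measure E3, IsProbabilityMeasure μ ∧ μ ≪ volume ∧ kantorovich μ < ⊤ ∧
      ¬ HasOptimalMonge μ :=
  counterexample

end Vale.Agent.Results.P121.NoOptimalMongePlan
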