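import Vale.Agent.Lib.P121.Final

/-!
# P121: no optimal Monge plan, stated with Mathlib notions only

The same counterexample as in `NoOptimalMongePlan`, with the statement written out in full, without
any infimum: some coupling of finite cost exists, and no Monge plan has cost at most the cost of
every coupling.
-/

namespace Vale.Agent.Results.P121.PlainStatement

open MeasureTheory Vale.Agent.Lib.P121
open scoped ENNReal

theorem result :
    ∃ μ : Measure (EuclideanSpace ℝ (Fin 3)), IsProbabilityMeasure μ ∧ μ ≪ volume ∧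
      (∃ π : Measure (EuclideanSpace ℝ (Fin 3) × EuclideanSpace ℝ (Fin 3) ×
            EuclideanSpace ℝ (Fin 3)),
          IsProbabilityMeasure π ∧
          π.map (fun p => p.1) = μ ∧ π.map (fun p => p.2.1) = μ ∧ π.map (fun p => p.2.2) = μ ∧
          ∫⁻ p, ((ENNReal.ofReal (dist p.1 p.2.1))⁻¹ + (ENNReal.ofReal (dist p.1 p.2.2))⁻¹ +
            (ENNReal.ofReal (dist p.2.1 p.2.2))⁻¹) ∂π < ⊤) ∧
      ¬ ∃ T2 T3 : EuclideanSpace ℝ (Fin 3) → EuclideanSpace ℝ (Fin 3),
          Measurable T2 ∧ Measurable T3 ∧ μ.map T2 = μ ∧ μ.map T3 = μ ∧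
          ∀ π : Measure (EuclideanSpace ℝ (Fin 3) × EuclideanSpace ℝ (Fin 3) ×
              EuclideanSpace ℝ (Fin 3)),
            IsProbabilityMeasure π →
            π.map (fun p => p.1) = μ → π.map (fun p => p.2.1) = μ → π.map (fun p => p.2.2) = μ →
            ∫⁻ x, ((ENNReal.ofReal (dist x (T2 x)))⁻¹ + (ENNReal.ofReal (dist x (T3 x)))⁻¹ +
              (ENNReal.ofReal (dist (T2 x) (T3 x)))⁻¹) ∂μ ≤
            ∫⁻ p, ((ENNReal.ofReal (dist p.1 p.2.1))⁻¹ + (ENNReal.ofReal (dist p.1 p.2.2))⁻¹ +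
              (ENNReal.ofReal (dist p.2.1 p.2.2))⁻¹) ∂π := by
  obtain ⟨μ, hμ, hac, hfin, hno⟩ := counterexample
  have hprob : ∀ π : Measure (E3 × E3 × E3), IsCoupling μ π → IsProbabilityMeasure π := by
    intro π hπ
    constructor
    have h1 : (π.map (fun p => p.1)) Set.univ = μ Set.univ := by rw [hπ.1]
    rw [Measure.map_apply measurable_fst MeasurableSet.univ] at h1
    simpa using h1
  refine ⟨μ, hμ, hac, ?_, ?_⟩
  · unfold kantorovich at hfin
    obtain ⟨π, hπ⟩ := iInf_lt_iff.1 hfin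
    obtain ⟨hc, hlt⟩ := iInf_lt_iff.1 hπ
    exact ⟨π, hprob π hc, hc.1, hc.2.1, hc.2.2, hlt⟩
  · rintro ⟨T2, T3, hT2, hT3, h2, h3, hall⟩
    apply hno
    refine ⟨T2, T3, hT2, hT3, h2, h3, le_antisymm ?_ ?_⟩
    · unfold kantorovich
      refine le_iInf fun π => le_iInf fun hπ => ?_
      exact hall π (hprob π hπ) hπ.1 hπ.2.1 hπ.2.2
    · have hm : Measurable (fun x : E3 => (x, T2 x, T3 x)) :=
        measurable_id.prodMk (hT2.prodMk hT3)
      have hcoup : IsCoupling μ (μ.map (fun x : E3 => (x, T2 x, T3 x))) := by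
        refine ⟨?_, ?_, ?_⟩
        · rw [Measure.map_map measurable_fst hm]
          exact Measure.map_id
        · have hp : Measurable (fun p : E3 × E3 × E3 => p.2.1) := by fun_prop
          rw [Measure.map_map hp hm]
          exact h2
        · have hp : Measurable (fun p : E3 × E3 × E3 => p.2.2) := by fun_prop
          rw [Measure.map_map hp hm]
          exact h3
      have hcm : Measurable (fun p : E3 × E3 × E3 => coulomb p.1 p.2.1 p.2.2) := by
        unfold coulomb
        fun_prop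
      have hle : kantorovich μ ≤
          ∫⁻ p, coulomb p.1 p.2.1 p.2.2 ∂(μ.map (fun x : E3 => (x, T2 x, T3 x))) :=
        iInf₂_le (f := fun (π : Measure (E3 × E3 × E3)) (_ : IsCoupling μ π) =>
          ∫⁻ p, coulomb p.1 p.2.1 p.2.2 ∂π) _ hcoup
      rw [lintegral_map hcm hm] at hle
      exact hle

end Vale.Agent.Results.P121.PlainStatement
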